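import Vale.Agent.P032.H747.Multi

/-!
# P032: frames with circles of order at least three

`Fr3` : as `Fr` (H93), centres with at least three colours.  At a centre `m` with exactly three
colours all letters are single colours outside `T m` (`Fr3.single`).

* `Fr3.sw`   : the structure `Sw`;
* `Fr3.ev3`  : any two limit columns at any time satisfy `Ev3`: as `Ev` (palettes, no inclusion, third
  colour), and no swap at two adjacent slots of one circle, or of two circles if one centre has at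
  least four colours and no slot is at the other centre;
* `Fr3N`     : the frame in names; `Fr3N.evO3`, `Fr3N.evS3` : the rules in names, special times
  included; `Fr3N.turn_lab` : the turn by 60 degrees with a class function.
-/

open Set Filter Topology Metric

noncomputable section

namespace Vale.Agent.P032.H423

open Vale.Agent.P032.Six Vale.Agent.P032.Sweep Vale.Agent.P032.S5.H767 Vale.Agent.P032.S5.H122
  Vale.Agent.P032.H187 Vale.Agent.P032.H93 Vale.Agent.P032.H780 Vale.Agent.P032.H747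

/-- the palettes of a swap: three colours, all outside the palette of the centre -/
theorem swap_pal {U : Fin 6 → Set ℂ} {T : ℂ → Set (Fin 6)} (h : Irr U T) {z p q : ℂ}
    (hpz : dist p z = 1) (hpq : dist p q = 1)
    (hzq : z ≠ q) (hzq2 : z + q ≠ 2 * p) (h3 : (T p).ncard ≤ 3)
    (h3' : (T q).ncard ≤ 3) {l l' m m' : Set (Fin 6)} (hl : l ⊆ T p) (hl' : l' ⊆ T p)
    (hm : m ⊆ T q) (hm' : m' ⊆ T q) (hL : IsLt T z l) (hL' : IsLt T z l') (hd : Disjoint l m)
    (hd' : Disjoint l' m') (h1 : ¬ Disjoint l m') (h2 : ¬ Disjoint l' m) :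
    T p ⊆ (T z)ᶜ ∧ (T p).ncard = 3 := by
  obtain ⟨s, hs, hs'⟩ := Set.not_disjoint_iff.1 h1
  obtain ⟨t, ht, ht'⟩ := Set.not_disjoint_iff.1 h2
  have hst : s ≠ t := fun hst => Set.disjoint_left.1 hd hs (hst ▸ ht')
  obtain ⟨x, hx, hx', hT, hX⟩ := third187 h hpq h3 h3' hst (hl hs) (hl' ht) (hm' hs') (hm ht')
  have hxz : x ∉ T z := fun hxz => hX z hpz hzq hzq2 (h.sub z hxz)
  have key : ∀ {l l' m m' : Set (Fin 6)} {s t : Fin 6}, l ⊆ T p → IsLt T z l → Disjoint l m →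
      s ∈ l → t ∈ m → T p = {s, t, x} → s ∉ T z := by
    intro l l' m m' s t hl hL hd hs ht hT hsz
    rcases hL with ⟨c, hc, rfl⟩ | ⟨hlz, h2l⟩
    · exact hc (mem_singleton_iff.1 hs ▸ hsz)
    · have hsub : l ⊆ {s} := by
        intro m' hm'
        have h5 := hl hm'
        rw [hT] at h5
        rcases h5 with rfl | rfl | h5
        · exact rfl
        · exact absurd ht (Set.disjoint_left.1 hd hm')
        · rw [mem_singleton_iff] at h5
          exact absurd (h5 ▸ hlz hm') hxz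
      have := Set.ncard_le_ncard hsub (Set.toFinite _)
      rw [Set.ncard_singleton] at this
      omega
  have hsz : s ∉ T z := key (l' := l') (m' := m') hl hL hd hs ht' hT
  have htz : t ∉ T z := key (l' := l) (m' := m) hl' hL' hd' ht hs' (by
    rw [hT]
    ext i
    simp only [mem_insert_iff, mem_singleton_iff]
    tauto)
  have hxs : x ≠ s := fun h5 => hx' (h5 ▸ hm' hs')
  have hxt : x ≠ t := fun h5 => hx' (h5 ▸ hm ht')
  refine ⟨?_, ?_⟩
  · rw [hT]
    rintro i (rfl | rfl | rfl)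
    · exact hsz
    · exact htz
    · exact hxz
  · rw [hT]
    exact Set.ncard_eq_three.2 ⟨s, t, x, hst, hxs.symm, hxt.symm, rfl⟩

theorem ncard_compl_add {T : ℂ → Set (Fin 6)} (z : ℂ) : (T z).ncard + ((T z)ᶜ).ncard = 6 := by
  have h7 := Set.ncard_add_ncard_compl (T z)
  rw [Nat.card_eq_fintype_card, Fintype.card_fin] at h7
  exact h7

/-- **No swap at two adjacent points of a circle of order at least three.** -/
theorem noswap3 {U : Fin 6 → Set ℂ} {T : ℂ → Set (Fin 6)} (h : Irr U T) {z p q : ℂ}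
    (hpz : dist p z = 1) (hqz : dist q z = 1) (hpq : dist p q = 1) (hz : 3 ≤ (T z).ncard)
    (h3 : (T p).ncard ≤ 3) (h3' : (T q).ncard ≤ 3) {l l' m m' : Set (Fin 6)} (hl : l ⊆ T p)
    (hl' : l' ⊆ T p) (hm : m ⊆ T q) (hm' : m' ⊆ T q) (hL : IsLt T z l) (hL' : IsLt T z l')
    (hM : IsLt T z m) (hM' : IsLt T z m')
    (hd : Disjoint l m) (hd' : Disjoint l' m') (h1 : ¬ Disjoint l m') (h2 : ¬ Disjoint l' m) :
    False := by
  obtain ⟨k1, k2⟩ := tri hpz hqz
  have hqp : dist q p = 1 := by rw [dist_comm]; exact hpq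
  obtain ⟨k3, k4⟩ := tri hqz hpz
  obtain ⟨a1, a2⟩ := swap_pal h hpz hpq k1 k2 h3 h3' hl hl' hm hm' hL hL' hd hd' h1 h2
  obtain ⟨b1, b2⟩ := swap_pal h hqz hqp k3 k4 h3' h3 hm hm' hl hl' hM hM' hd.symm hd'.symm
    (fun h5 => h2 h5.symm) (fun h5 => h1 h5.symm)
  have hc := ncard_compl_add (T := T) z
  have e1 : T p = (T z)ᶜ := Set.eq_of_subset_of_ncard_le a1 (by omega) (Set.toFinite _)
  have e2 : T q = (T z)ᶜ := Set.eq_of_subset_of_ncard_le b1 (by omega) (Set.toFinite _)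
  obtain ⟨x, hx, hx'⟩ := h.not_sub' hpq h3'
  exact hx' (by rw [e2, ← e1]; exact hx)

variable {κ Λ : Type} {U : Fin 6 → Set ℂ} {T : ℂ → Set (Fin 6)} {z : κ → ℂ}
  {W : κ → Λ → Set (Fin 6)} {lt : κ → Set (Fin 6) → Λ} {φ u : ℝ}

/-- several centres with at least three colours, with letters -/
structure Fr3 (U : Fin 6 → Set ℂ) (T : ℂ → Set (Fin 6)) (z : κ → ℂ) (W : κ → Λ → Set (Fin 6))
    (lt : κ → Set (Fin 6) → Λ) : Prop where
  irr : Irr U T
  xx : ∀ c, z c ∈ XX U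
  three : ∀ c, 3 ≤ (T (z c)).ncard
  isLt : ∀ c l, IsLt T (z c) (W c l)
  sub : ∀ c s, s ∈ Lc T (z c) → W c (lt c (T (pt (z c) s))) ⊆ T (pt (z c) s)
  ex : ∀ c s, s ∈ Lc T (z c) → W c (lt c (T (pt (z c) s))) ⊆ T (z c) →
    T (pt (z c) s) = W c (lt c (T (pt (z c) s)))

theorem Fr3.of_fr (F : Fr U T z W lt) : Fr3 U T z W lt :=
  ⟨F.irr, F.xx, fun c => (by norm_num : 3 ≤ 4).trans (F.four c), F.isLt, F.sub, F.ex⟩

/-- the rules for the columns before and after, at the time `u` -/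
structure Ev3 (T : ℂ → Set (Fin 6)) (z : κ → ℂ) (W : κ → Λ → Set (Fin 6)) (φ u : ℝ)
    (g g' : κ × Fin 6 → Λ) : Prop where
  leg : Lg T z W g
  leg' : Lg T z W g'
  pal : ∀ s, W s.1 (g s) ∪ W s.1 (g' s) ⊆ T (pos z φ u s)
  /-- no swap at two adjacent slots, or both palettes are the complements of the palettes of their
  centres -/
  swap : ∀ s t, Adj z s t → (s.1 = t.1 ∨ (pos z φ u s ≠ z t.1 ∧ pos z φ u t ≠ z s.1)) →
    (T (pos z φ u s)).ncard ≤ 3 → (T (pos z φ u t)).ncard ≤ 3 →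
    Disjoint (W s.1 (g s)) (W t.1 (g' t)) ∨ Disjoint (W s.1 (g' s)) (W t.1 (g t)) ∨
    (s.1 ≠ t.1 ∧ T (pos z φ u s) = (T (z s.1))ᶜ ∧ T (pos z φ u t) = (T (z t.1))ᶜ)
  nsub : ∀ s t, Adj z s t → (T (pos z φ u t)).ncard ≤ 3 →
    ¬ T (pos z φ u s) ⊆ T (pos z φ u t)
  csub : ∀ s, (T (z s.1)).ncard ≤ 3 → ¬ T (pos z φ u s) ⊆ T (z s.1)
  psub : ∀ s, (T (pos z φ u s)).ncard ≤ 3 → ¬ T (z s.1) ⊆ T (pos z φ u s)
  third : ∀ s t r, Adj z s t → Adj z s r → (T (pos z φ u s)).ncard ≤ 3 →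
    (T (pos z φ u t)).ncard ≤ 3 → 2 ≤ (T (pos z φ u s) ∩ T (pos z φ u t)).ncard →
    pos z φ u r ≠ pos z φ u t → pos z φ u r + pos z φ u t ≠ 2 * pos z φ u s →
    Disjoint (T (pos z φ u s) \ T (pos z φ u t)) (T (pos z φ u r))
  /-- third colour of a centre with three colours -/
  thc : ∀ c j j', j' ≠ j → j' ≠ j + 3 → (T (z c)).ncard ≤ 3 →
    (T (pos z φ u (c, j))).ncard ≤ 3 → 2 ≤ (T (z c) ∩ T (pos z φ u (c, j))).ncard →
    Disjoint (T (z c) \ T (pos z φ u (c, j))) (T (pos z φ u (c, j')))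
  /-- third colour of a slot of a centre with three colours -/
  thp : ∀ c j j', (j' = j + 1 ∨ j = j' + 1) → (T (z c)).ncard ≤ 3 →
    (T (pos z φ u (c, j))).ncard ≤ 3 → 2 ≤ (T (z c) ∩ T (pos z φ u (c, j))).ncard →
    Disjoint (T (pos z φ u (c, j)) \ T (z c)) (T (pos z φ u (c, j')))

/-- the slots of a circle are different points -/
theorem pos_inj {c : κ} {j j' : Fin 6} (h : pos z φ u (c, j) = pos z φ u (c, j')) : j = j' := by
  obtain ⟨n, hn⟩ := pt_eq_iff (show pt (z c) (φ + u + (j.val : ℝ)) =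
    pt (z c) (φ + u + (j'.val : ℝ)) from h)
  have h1 : (j.val : ℝ) = (j'.val : ℝ) + 6 * (n : ℝ) := by linarith
  have h2 : (j.val : ℤ) = (j'.val : ℤ) + 6 * n := by exact_mod_cast h1
  have h3 := j.isLt
  have h4 := j'.isLt
  exact Fin.ext (by omega)

namespace Fr3

theorem avail (F : Fr3 U T z W lt) {s : κ × Fin 6} {l : Λ} (hu : u ∈ Xl T z φ lt s l) :
    W s.1 l ⊆ T (pos z φ u s) := by
  obtain ⟨P, hP, h1, h2⟩ := Xl_pal hu
  obtain ⟨v, hv1, hv2⟩ : ({v | v ∈ Lc T (z s.1) ∧ T (pt (z s.1) v) = P} : Set ℝ).Nonempty :=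
    closure_nonempty_iff.1 ⟨_, h1⟩
  have h3 := F.sub s.1 v hv1
  rw [hv2, hP] at h3
  exact h3.trans (sub_of_closure F.irr h2)

theorem avail_ex (F : Fr3 U T z W lt) {s : κ × Fin 6} {l : Λ} (hu : u ∈ Xl T z φ lt s l)
    (hl : W s.1 l ⊆ T (z s.1)) : pos z φ u s ∈ closure (Ex T (z s.1) (W s.1 l)) := by
  obtain ⟨P, hP, h1, h2⟩ := Xl_pal hu
  obtain ⟨v, hv1, hv2⟩ : ({v | v ∈ Lc T (z s.1) ∧ T (pt (z s.1) v) = P} : Set ℝ).Nonempty :=
    closure_nonempty_iff.1 ⟨_, h1⟩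
  have h3 := F.ex s.1 v hv1
  rw [hv2, hP] at h3
  rw [h3 hl] at h2
  exact h2

theorem sw [Finite κ] [Finite Λ] (F : Fr3 U T z W lt) (φ : ℝ) : Sw (Xl T z φ lt) (Lg T z W) := by
  refine sw_of F.irr (Dir_dense z φ) fun u hd hu => ?_
  have B := bas_of F.irr hu hd
  have hs : ∀ s : κ × Fin 6, W s.1 (lt s.1 (pals T z φ u s)) ⊆ pals T z φ u s := fun s =>
    F.sub s.1 _ (hu s)
  refine ⟨fun s t hst => ?_, fun c j => ?_⟩
  · obtain ⟨c, j⟩ := s
    obtain ⟨c', j'⟩ := t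
    rcases hst with ⟨h1, h2 | h2⟩ | ⟨h1, h2⟩
    · obtain rfl : c = c' := h1
      obtain rfl : j' = j + 1 := h2
      exact (B.sixty c j).mono (hs _) (hs _)
    · obtain rfl : c = c' := h1
      obtain rfl : j = j' + 1 := h2
      exact ((B.sixty c j').mono (hs _) (hs _)).symm
    · obtain rfl : j = j' := h1
      exact (B.prod c c' h2 j).mono (hs _) (hs _)
  · exact (B.anti c (F.xx c) j).trans (Set.ncard_le_ncard
      (sdiff_subset_sdiff_right (union_subset_union (hs (c, j)) (hs (c, j + 3)))) (Set.toFinite _))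

/-- a letter of a legal column at a centre with exactly three colours is a single free colour -/
theorem single (F : Fr3 U T z W lt) {g : κ × Fin 6 → Λ} (hg : Lg T z W g) {s : κ × Fin 6}
    (h3 : (T (z s.1)).ncard ≤ 3) : ∃ c, c ∉ T (z s.1) ∧ W s.1 (g s) = {c} := by
  obtain ⟨c, j⟩ := s
  rcases F.isLt c (g (c, j)) with h1 | ⟨h1, h2⟩
  · exact h1
  · exfalso
    have h4 := hg.2 c j
    have h5 : (T (z c) \ (W c (g (c, j)) ∪ W c (g (c, j + 3)))).ncard ≤
        (T (z c) \ W c (g (c, j))).ncard :=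
      Set.ncard_le_ncard (sdiff_subset_sdiff_right subset_union_left) (Set.toFinite _)
    have h6 := Set.ncard_sdiff_add_ncard_of_subset h1
    have h3 : (T (z c)).ncard ≤ 3 := h3
    omega

/-- the third colour at an edge of low order -/
theorem third_pt {U : Fin 6 → Set ℂ} {T : ℂ → Set (Fin 6)} (h : Irr U T) {p q r : ℂ}
    (hpq : dist p q = 1) (hpr : dist p r = 1) (h3 : (T p).ncard ≤ 3) (h3' : (T q).ncard ≤ 3)
    (h2 : 2 ≤ (T p ∩ T q).ncard) (hne : r ≠ q) (hne2 : r + q ≠ 2 * p) :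
    Disjoint (T p \ T q) (T r) := by
  obtain ⟨i, hi, j, hj, hij⟩ := (Set.one_lt_ncard (Set.toFinite _)).1 h2
  obtain ⟨x, hx, hx', hT, hX⟩ := third187 h hpq h3 h3' hij hi.1 hj.1 hi.2 hj.2
  rw [Set.disjoint_left]
  rintro y ⟨hy, hy'⟩ hyr
  have : y = x := by
    rw [hT] at hy
    rcases hy with rfl | rfl | hy
    · exact absurd hi.2 hy'
    · exact absurd hj.2 hy'
    · exact hy
  subst this
  exact hX _ hpr hne hne2 (h.sub _ hyr)

/-- adjacent slots: the centre and the other slot are not on a line with the slot -/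
theorem off_line3 {s t : κ × Fin 6} (hst : Adj z s t)
    (hn : s.1 = t.1 ∨ (pos z φ u s ≠ z t.1 ∧ pos z φ u t ≠ z s.1)) :
    z s.1 ≠ pos z φ u t ∧ z s.1 + pos z φ u t ≠ 2 * pos z φ u s := by
  obtain ⟨c, j⟩ := s
  obtain ⟨c', j'⟩ := t
  by_cases hc : c = c'
  · subst hc
    have hz : dist (pos z φ u (c, j')) (z c) = 1 := dist_pos z φ u (c, j')
    have hd : dist (pos z φ u (c, j)) (pos z φ u (c, j')) = 1 := hst.dist φ u
    rw [dist_comm] at hd
    refine ⟨fun h5 => ?_, (tri (dist_pos z φ u (c, j)) hz).2⟩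
    have h6 : z c = pos z φ u (c, j') := h5
    rw [← h6, dist_self] at hz
    exact zero_ne_one hz
  · obtain ⟨hn1, hn2⟩ := hn.resolve_left hc
    refine ⟨hn2.symm, fun hcon => ?_⟩
    rcases hst with ⟨h1, h2⟩ | ⟨h1, h2⟩
    · exact hc h1
    · obtain rfl : j = j' := h1
      have e := pos_side z φ u c c' j
      refine hn1 ?_
      have hcon : z c + pos z φ u (c', j) = 2 * pos z φ u (c, j) := hcon
      rw [e] at hcon
      show pos z φ u (c, j) = z c'
      linear_combination -hcon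

/-- **Any two limit columns satisfy the rules.** -/
theorem ev3 [Finite κ] [Finite Λ] (F : Fr3 U T z W lt) {g g' : κ × Fin 6 → Λ}
    (hg : g ∈ LC (Xl T z φ lt) u ∪ RC (Xl T z φ lt) u)
    (hg' : g' ∈ LC (Xl T z φ lt) u ∪ RC (Xl T z φ lt) u) : Ev3 T z W φ u g g' := by
  have w := F.sw φ
  have key : ∀ g ∈ LC (Xl T z φ lt) u ∪ RC (Xl T z φ lt) u,
      Lg T z W g ∧ Av (Xl T z φ lt) u g := by
    rintro g (hh | hh)
    · exact ⟨w.leg_of_LC hh, w.av_of_LC hh⟩
    · exact ⟨w.leg_of_RC hh, w.av_of_RC hh⟩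
  obtain ⟨hL, ha⟩ := key g hg
  obtain ⟨hL', ha'⟩ := key g' hg'
  refine ⟨hL, hL', fun s => union_subset (F.avail (ha s)) (F.avail (ha' s)), ?_, ?_, ?_, ?_, ?_,
    ?_, ?_⟩
  · intro s t hst hn h3 h3'
    by_contra hcon
    push Not at hcon
    obtain ⟨h1, h2, h0⟩ := hcon
    by_cases hc : s.1 = t.1
    · have htz : dist (pos z φ u t) (z s.1) = 1 := by rw [hc]; exact dist_pos z φ u t
      exact noswap3 F.irr (dist_pos z φ u s) htz (hst.dist φ u) (F.three _) h3 h3'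
        (F.avail (ha s)) (F.avail (ha' s)) (F.avail (ha t)) (F.avail (ha' t)) (F.isLt _ _)
        (F.isLt _ _) (by rw [hc]; exact F.isLt _ _) (by rw [hc]; exact F.isLt _ _) (hL.1 s t hst)
        (hL'.1 s t hst) h1 h2
    · have hn' : t.1 = s.1 ∨ (pos z φ u t ≠ z s.1 ∧ pos z φ u s ≠ z t.1) :=
        hn.imp Eq.symm And.symm
      obtain ⟨o1, o2⟩ := off_line3 hst hn
      obtain ⟨o3, o4⟩ := off_line3 hst.symm hn'
      obtain ⟨a1, a2⟩ := swap_pal F.irr (dist_pos z φ u s) (hst.dist φ u) o1 o2 h3 h3'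
        (F.avail (ha s)) (F.avail (ha' s)) (F.avail (ha t)) (F.avail (ha' t)) (F.isLt _ _)
        (F.isLt _ _) (hL.1 s t hst) (hL'.1 s t hst) h1 h2
      obtain ⟨b1, b2⟩ := swap_pal F.irr (dist_pos z φ u t) (hst.symm.dist φ u) o3 o4 h3' h3
        (F.avail (ha t)) (F.avail (ha' t)) (F.avail (ha s)) (F.avail (ha' s)) (F.isLt _ _)
        (F.isLt _ _) (hL.1 s t hst).symm (hL'.1 s t hst).symm (fun h5 => h2 h5.symm)
        (fun h5 => h1 h5.symm)
      have c1 := ncard_compl_add (T := T) (z s.1)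
      have c2 := ncard_compl_add (T := T) (z t.1)
      have c3 := F.three s.1
      have c4 := F.three t.1
      exact h0 hc (Set.eq_of_subset_of_ncard_le a1 (by omega) (Set.toFinite _))
        (Set.eq_of_subset_of_ncard_le b1 (by omega) (Set.toFinite _))
  · intro s t hst h3' hsub
    obtain ⟨x, hx, hx'⟩ := F.irr.not_sub' (hst.dist φ u) h3'
    exact hx' (hsub hx)
  · intro s h3 hsub
    obtain ⟨x, hx, hx'⟩ := F.irr.not_sub' (dist_pos z φ u s) h3
    exact hx' (hsub hx)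
  · intro s h3 hsub
    have hd : dist (z s.1) (pos z φ u s) = 1 := by rw [dist_comm]; exact dist_pos z φ u s
    obtain ⟨x, hx, hx'⟩ := F.irr.not_sub' hd h3
    exact hx' (hsub hx)
  · intro s t r hst hsr h3 h3' h2 hne hne2
    exact third_pt F.irr (hst.dist φ u) (hsr.dist φ u) h3 h3' h2 hne hne2
  · intro c j j' hj hj' h3 h3' h2
    refine third_pt F.irr (p := z c) (q := pos z φ u (c, j)) (r := pos z φ u (c, j'))
      (by rw [dist_comm]; exact dist_pos z φ u (c, j))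
      (by rw [dist_comm]; exact dist_pos z φ u (c, j')) h3 h3' h2 ?_ ?_
    · exact fun h5 => hj (pos_inj h5)
    · intro h5
      refine hj' (pos_inj (z := z) (φ := φ) (u := u) (c := c) ?_)
      rw [pos_add3]
      linear_combination h5
  · intro c j j' hj h3 h3' h2
    have hst : Adj z (c, j) (c, j') := Or.inl ⟨rfl, hj⟩
    have hd : dist (pos z φ u (c, j)) (pos z φ u (c, j')) = 1 := hst.dist φ u
    obtain ⟨k1, k2⟩ := tri (dist_pos z φ u (c, j)) (dist_pos z φ u (c, j'))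
    rw [Set.inter_comm] at h2
    exact third_pt F.irr (p := pos z φ u (c, j)) (q := z c) (r := pos z φ u (c, j'))
      (dist_pos z φ u (c, j)) hd h3' h3 h2 k1.symm (by rw [add_comm]; exact k2)

end Fr3

end Vale.Agent.P032.H423
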