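import Vale.Agent.P032.H423.Fr3
import Vale.Agent.P032.H326.Col5

/-!
# P032: frames with circles of order at least three, in names

`FrN3 U T z N D K C lt` : as `FrN` (H93) over `Fr3`.
`EvN3 D K C A P h h'`   : the rules in names; `A s k` : the slot `s` may be at the centre `k`.
`EvS3 D K C G two OK P h h'` : with the data `Geo` of 747 (equal points, slots at centres, third
colour), splits and closed antipodal rule at two-pair centres.
`FrN3.evS`, `FrN3.evO`, `FrN3.turn_lab`, `FrN3.false_of` : as in H747.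
`Circ3`, `circ3`, `Circ3.of_circ`, `frN3_of_circ` : circles of a family; `circ3` : the circle of a
centre with three colours, three letters (the free colours).
-/

open Set Filter Topology Metric

noncomputable section

namespace Vale.Agent.P032.H423

open Vale.Agent.P032.Six Vale.Agent.P032.Sweep Vale.Agent.P032.S5.H767 Vale.Agent.P032.S5.H122
  Vale.Agent.P032.H187 Vale.Agent.P032.H93 Vale.Agent.P032.H780 Vale.Agent.P032.H747
  Vale.Agent.P032.H326

variable {κ Λ : Type} {U : Fin 6 → Set ℂ} {T : ℂ → Set (Fin 6)} {z : κ → ℂ}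
  {N : Fin 6 → Fin 6} {D : κ → κ → Prop} {K : κ → Λ → Finset (Fin 6)} {C : κ → Finset (Fin 6)}
  {lt : κ → Set (Fin 6) → Λ} {φ u : ℝ}

theorem nm_compl (P : Set (Fin 6)) : nm N Pᶜ = (nm N P)ᶜ := by
  ext i
  rw [Finset.mem_compl, mem_nm, mem_nm]; exact Iff.rfl

theorem nm_sub (hN : Function.Injective N) {P Q : Set (Fin 6)} (h : nm N P ⊆ nm N Q) : P ⊆ Q := by
  intro i hi
  obtain ⟨j, rfl⟩ := (Finite.injective_iff_surjective.1 hN) i
  exact mem_nm.1 (h (mem_nm.2 hi))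

/-- the rules for the columns before and after, in names; `P s` = the names of the palette of the
slot point, `A s k` : the slot `s` may be at the centre `k` -/
structure EvN3 (D : κ → κ → Prop) (K : κ → Λ → Finset (Fin 6)) (C : κ → Finset (Fin 6))
    (A : κ × Fin 6 → κ → Prop) (P : κ × Fin 6 → Finset (Fin 6)) (h h' : κ × Fin 6 → Λ) :
    Prop where
  leg : LgN D K C h
  leg' : LgN D K C h'
  /-- all colours are in the palette -/
  pal : ∀ s, K s.1 (h s) ∪ K s.1 (h' s) ⊆ P s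
  /-- no swap at two adjacent slots with at most three colours, or both palettes are the complements
  of the palettes of their centres -/
  swap : ∀ s t, AdjD D s t → (s.1 = t.1 ∨ (¬ A s t.1 ∧ ¬ A t s.1)) → (P s).card ≤ 3 →
    (P t).card ≤ 3 →
    Disjoint (K s.1 (h s)) (K t.1 (h' t)) ∨ Disjoint (K s.1 (h' s)) (K t.1 (h t)) ∨
    (s.1 ≠ t.1 ∧ P s = (C s.1)ᶜ ∧ P t = (C t.1)ᶜ)
  nsub : ∀ s t, AdjD D s t → (P t).card ≤ 3 → ¬ P s ⊆ P t
  csub : ∀ s, (C s.1).card ≤ 3 → ¬ P s ⊆ C s.1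
  psub : ∀ s, (P s).card ≤ 3 → ¬ C s.1 ⊆ P s
  /-- third colour of a centre with three colours -/
  thc : ∀ c j j', j' ≠ j → j' ≠ j + 3 → (C c).card ≤ 3 → (P (c, j)).card ≤ 3 →
    2 ≤ (C c ∩ P (c, j)).card → Disjoint (C c \ P (c, j)) (P (c, j'))
  /-- third colour of a slot of a centre with three colours -/
  thp : ∀ c j j', (j' = j + 1 ∨ j = j' + 1) → (C c).card ≤ 3 → (P (c, j)).card ≤ 3 →
    2 ≤ (C c ∩ P (c, j)).card → Disjoint (P (c, j) \ C c) (P (c, j'))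

/-- the frame in names -/
structure FrN3 (U : Fin 6 → Set ℂ) (T : ℂ → Set (Fin 6)) (z : κ → ℂ) (N : Fin 6 → Fin 6)
    (D : κ → κ → Prop) (K : κ → Λ → Finset (Fin 6)) (C : κ → Finset (Fin 6))
    (lt : κ → Set (Fin 6) → Λ) : Prop where
  inj : Function.Injective N
  fr : Fr3 U T z (fun k l => N '' (K k l : Set (Fin 6))) lt
  ctr : ∀ k, C k = nm N (T (z k))
  dist : ∀ k k', D k k' → Dist.dist (z k) (z k') = 1

theorem FrN3.of_frN (F : FrN U T z N D K C lt) : FrN3 U T z N D K C lt :=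
  ⟨F.inj, Fr3.of_fr F.fr, F.ctr, F.dist⟩

/-- the general rules for the column before and the column after; `A` : the slots which may be at
centres -/
structure EvS3 (D : κ → κ → Prop) (K : κ → Λ → Finset (Fin 6)) (C : κ → Finset (Fin 6))
    (A : κ × Fin 6 → κ → Prop) (G : Geo κ) (two : κ → Option (Fin 6 → Fin 6))
    (OK : κ × Fin 6 → Finset (Fin 6) → Prop)
    (P : κ × Fin 6 → Finset (Fin 6)) (h h' : κ × Fin 6 → Λ) : Prop
    extends EvN3 D K C A P h h' where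
  co : ∀ s t, G.Co s t → P s = P t
  ctr : ∀ s k, G.At s k → P s = C k
  third : ∀ s t r, AdjD D s t → AdjD D s r → G.Th s t r → (P s).card ≤ 3 → (P t).card ≤ 3 →
    2 ≤ (P s ∩ P t).card → Disjoint (P s \ P t) (P r)
  split : ∀ s k ν, G.At s k → two k = some ν → Spl ν (K s.1 (h s)) (K s.1 (h' s))
  anti : ∀ k ν, two k = some ν → ∀ j, ∀ l, (l = h (k, j + 3) ∨ l = h' (k, j + 3)) →
    (K k l = {ν 0, ν 1} → ¬ (ν 2 ∈ P (k, j) ∧ ν 3 ∈ P (k, j))) ∧
    (K k l = {ν 2, ν 3} → ¬ (ν 0 ∈ P (k, j) ∧ ν 1 ∈ P (k, j)))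
  ok : ∀ s, OK s (P s)

namespace FrN3

variable (F : FrN3 U T z N D K C lt)
include F

theorem adj {s t : κ × Fin 6} (h : AdjD D s t) : Adj z s t :=
  h.imp id fun h => ⟨h.1, F.dist _ _ h.2⟩

theorem leg {g : κ × Fin 6 → Λ}
    (h : Lg T z (fun k l => N '' (K k l : Set (Fin 6))) g) : LgN D K C g := by
  refine ⟨fun s t hst => (image_disj F.inj).1 (h.1 s t (F.adj hst)), fun c j => ?_⟩
  have h1 := h.2 c j
  rw [← card_nm F.inj, nm_sdiff, nm_union, nm_image F.inj, nm_image F.inj, ← F.ctr] at h1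
  exact h1

/-- the sweep structure in names -/
theorem sw [Finite κ] [Finite Λ] (φ : ℝ) :
    Sw (Xl T z φ lt) (LgN D K C) := (F.fr.sw φ).imp fun _ h => F.leg h

theorem av_of [Finite κ] [Finite Λ] {h : κ × Fin 6 → Λ}
    (hh : h ∈ LC (Xl T z φ lt) u ∪ RC (Xl T z φ lt) u) : Av (Xl T z φ lt) u h := by
  have w := F.fr.sw φ
  rcases hh with hh | hh
  · exact w.av_of_LC hh
  · exact w.av_of_RC hh

/-- **Any two limit columns satisfy the rules in names.** -/
theorem ev [Finite κ] [Finite Λ] {A : κ × Fin 6 → κ → Prop}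
    (hA : ∀ s k, pos z φ u s = z k → A s k) {h h' : κ × Fin 6 → Λ}
    (hh : h ∈ LC (Xl T z φ lt) u ∪ RC (Xl T z φ lt) u)
    (hh' : h' ∈ LC (Xl T z φ lt) u ∪ RC (Xl T z φ lt) u) :
    EvN3 D K C A (PN T z N φ u) h h' := by
  have E := F.fr.ev3 hh hh'
  have hc : ∀ s, (PN T z N φ u s).card = (T (pos z φ u s)).ncard := fun s => card_nm F.inj _
  have hC : ∀ k, (C k).card = (T (z k)).ncard := fun k => by rw [F.ctr]; exact card_nm F.inj _
  refine ⟨F.leg E.leg, F.leg E.leg', fun s => ?_, fun s t hst hn h1 h2 => ?_,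
    fun s t hst h2 hsub => ?_, fun s h1 hsub => ?_, fun s h1 hsub => ?_,
    fun c j j' hj hj' h1 h2 h3 => ?_, fun c j j' hj h1 h2 h3 => ?_⟩
  · have h1 := nm_mono (N := N) (E.pal s)
    rw [nm_union, nm_image F.inj, nm_image F.inj] at h1
    exact h1
  · rw [hc] at h1 h2
    have hn' : s.1 = t.1 ∨ (pos z φ u s ≠ z t.1 ∧ pos z φ u t ≠ z s.1) :=
      hn.imp id fun h5 => ⟨fun h6 => h5.1 (hA _ _ h6), fun h6 => h5.2 (hA _ _ h6)⟩
    rcases E.swap s t (F.adj hst) hn' h1 h2 with h5 | h5 | ⟨h5, h6, h7⟩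
    · exact Or.inl ((image_disj F.inj).1 h5)
    · exact Or.inr (Or.inl ((image_disj F.inj).1 h5))
    · refine Or.inr (Or.inr ⟨h5, ?_, ?_⟩)
      · show nm N (T (pos z φ u s)) = _
        rw [h6, nm_compl, F.ctr]
      · show nm N (T (pos z φ u t)) = _
        rw [h7, nm_compl, F.ctr]
  · rw [hc] at h2
    exact E.nsub s t (F.adj hst) h2 (nm_sub F.inj hsub)
  · rw [hC] at h1
    rw [F.ctr] at hsub
    exact E.csub s h1 (nm_sub F.inj hsub)
  · rw [hc] at h1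
    rw [F.ctr] at hsub
    exact E.psub s h1 (nm_sub F.inj hsub)
  · rw [hC] at h1
    rw [hc] at h2
    have h4 := E.thc c j j' hj hj' h1 h2 (by
      rw [← card_nm F.inj, nm_inter, ← F.ctr]; exact h3)
    rw [← nm_disj F.inj, nm_sdiff, ← F.ctr] at h4
    exact h4
  · rw [hC] at h1
    rw [hc] at h2
    have h4 := E.thp c j j' hj h1 h2 (by
      rw [← card_nm F.inj, nm_inter, ← F.ctr]; exact h3)
    rw [← nm_disj F.inj, nm_sdiff, ← F.ctr] at h4
    exact h4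

/-- third colour -/
theorem third [Finite κ] [Finite Λ] {h h' : κ × Fin 6 → Λ}
    (hh : h ∈ LC (Xl T z φ lt) u ∪ RC (Xl T z φ lt) u)
    (hh' : h' ∈ LC (Xl T z φ lt) u ∪ RC (Xl T z φ lt) u) {s t r : κ × Fin 6} (hst : AdjD D s t)
    (hsr : AdjD D s r) (h1 : (PN T z N φ u s).card ≤ 3) (h2 : (PN T z N φ u t).card ≤ 3)
    (h3 : 2 ≤ (PN T z N φ u s ∩ PN T z N φ u t).card) (hne : pos z φ u r ≠ pos z φ u t)
    (hne2 : pos z φ u r + pos z φ u t ≠ 2 * pos z φ u s) :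
    Disjoint (PN T z N φ u s \ PN T z N φ u t) (PN T z N φ u r) := by
  have E := F.fr.ev3 hh hh'
  have hc : ∀ s, (PN T z N φ u s).card = (T (pos z φ u s)).ncard := fun s => card_nm F.inj _
  have h4 := E.third s t r (F.adj hst) (F.adj hsr) (by rw [← hc]; exact h1)
    (by rw [← hc]; exact h2) (by
      rw [← card_nm F.inj, nm_inter]; exact h3) hne hne2
  rw [← nm_disj F.inj, nm_sdiff] at h4
  exact h4

/-- the colours of the letter of a constant palette -/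
theorem K_pal {k : κ} {s : ℝ} (hs : s ∈ Lc T (z k)) :
    N '' (K k (lt k (T (pt (z k) s))) : Set (Fin 6)) ⊆ T (pt (z k) s) := F.fr.sub k s hs

theorem K_seenL {k : κ} {s : ℝ} {Q X : Set (Fin 6)} (hQ : SeenL T (z k) s Q)
    (hX : ∀ᶠ w in 𝓝[<] s, T (pt (z k) w) ⊆ X) : N '' (K k (lt k Q) : Set (Fin 6)) ⊆ X := by
  obtain ⟨w, ⟨hw1, hw2⟩, hw3⟩ := (Frequently.and_eventually hQ hX).exists
  rw [← hw2]
  exact (F.K_pal hw1).trans hw3

theorem K_seenR {k : κ} {s : ℝ} {Q X : Set (Fin 6)} (hQ : SeenR T (z k) s Q)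
    (hX : ∀ᶠ w in 𝓝[>] s, T (pt (z k) w) ⊆ X) : N '' (K k (lt k Q) : Set (Fin 6)) ⊆ X := by
  obtain ⟨w, ⟨hw1, hw2⟩, hw3⟩ := (Frequently.and_eventually hQ hX).exists
  rw [← hw2]
  exact (F.K_pal hw1).trans hw3

/-- **the split of the limit columns at a two-pair point** -/
theorem spl_col {s : κ × Fin 6} {ν : Fin 6 → Fin 6}
    (hd : DPt T (pos z φ u s) (N (ν 0)) (N (ν 1)) (N (ν 2)) (N (ν 3))) {h h' : κ × Fin 6 → Λ}
    (hh : h ∈ LC (Xl T z φ lt) u) (hh' : h' ∈ RC (Xl T z φ lt) u) :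
    Spl ν (K s.1 (h s)) (K s.1 (h' s)) := by
  obtain ⟨X, Y, hXY, h1, h2⟩ := split_ang F.fr.irr hd
  obtain ⟨Q, hQ, hS⟩ := LC_pal hh s
  obtain ⟨Q', hQ', hS'⟩ := RC_pal hh' s
  have k1 := F.K_seenL hS h1
  have k2 := F.K_seenR hS' h2
  rw [hQ] at k1
  rw [hQ'] at k2
  rcases hXY with ⟨rfl, rfl⟩ | ⟨rfl, rfl⟩ | ⟨rfl, rfl⟩ | ⟨rfl, rfl⟩
  · exact Or.inl ⟨sub_two' F.inj k1, sub_two' F.inj k2⟩
  · exact Or.inr (Or.inl ⟨sub_two' F.inj k1, sub_two' F.inj k2⟩)
  · exact Or.inr (Or.inr (Or.inl ⟨sub_two' F.inj k1, sub_two' F.inj k2⟩))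
  · exact Or.inr (Or.inr (Or.inr ⟨sub_two' F.inj k1, sub_two' F.inj k2⟩))

/-- closed antipodal rule in names, for an available letter -/
theorem anti_nm {k : κ} {j : Fin 6} {ν : Fin 6 → Fin 6} {l : Λ}
    (hd : DPt T (z k) (N (ν 0)) (N (ν 1)) (N (ν 2)) (N (ν 3)))
    (hl : u ∈ Xl T z φ lt (k, j + 3) l) :
    (K k l = {ν 0, ν 1} → ¬ (ν 2 ∈ PN T z N φ u (k, j) ∧ ν 3 ∈ PN T z N φ u (k, j))) ∧
    (K k l = {ν 2, ν 3} → ¬ (ν 0 ∈ PN T z N φ u (k, j) ∧ ν 1 ∈ PN T z N φ u (k, j))) := by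
  have hpal : T (z k) = {N (ν 0), N (ν 1), N (ν 2), N (ν 3)} := hd.pal
  have e3 : pos z φ u (k, j + 3) = 2 * z k - pos z φ u (k, j) := pos_add3 z φ u k j
  constructor
  · rintro hK ⟨h2, h3⟩
    have hW : N '' (K k l : Set (Fin 6)) = {N (ν 0), N (ν 1)} := by
      rw [hK]; ext i; simp [eq_comm]
    have h4 := F.fr.avail_ex (s := (k, j + 3)) hl (by
      show N '' (K k l : Set (Fin 6)) ⊆ T (z k)
      rw [hW, hpal]
      rintro i (hi | hi)
      · exact Or.inl hi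
      · exact Or.inr (Or.inl hi))
    have h5 : pos z φ u (k, j + 3) ∈ closure (Ex T (z k) (N '' (K k l : Set (Fin 6)))) := h4
    rw [e3, hW] at h5
    exact F.fr.irr.anti_clo hd (dist_pos z φ u (k, j)) (mem_nm.1 h2) (mem_nm.1 h3) h5
  · rintro hK ⟨h0, h1⟩
    have hW : N '' (K k l : Set (Fin 6)) = {N (ν 2), N (ν 3)} := by
      rw [hK]; ext i; simp [eq_comm]
    have h4 := F.fr.avail_ex (s := (k, j + 3)) hl (by
      show N '' (K k l : Set (Fin 6)) ⊆ T (z k)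
      rw [hW, hpal]
      rintro i (hi | hi)
      · exact Or.inr (Or.inr (Or.inl hi))
      · exact Or.inr (Or.inr (Or.inr hi)))
    have h5 : pos z φ u (k, j + 3) ∈ closure (Ex T (z k) (N '' (K k l : Set (Fin 6)))) := h4
    rw [e3, hW] at h5
    exact F.fr.irr.anti_clo hd.swap (dist_pos z φ u (k, j)) (mem_nm.1 h0) (mem_nm.1 h1) h5

/-- the common part of the rules -/
theorem evS_aux [Finite κ] [Finite Λ] {A : κ × Fin 6 → κ → Prop}
    (hA : ∀ s k, pos z φ u s = z k → A s k) {G : Geo κ} (hG : G.Ok z φ u)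
    {two : κ → Option (Fin 6 → Fin 6)} (h2 : TwoC T z N two)
    {OK : κ × Fin 6 → Finset (Fin 6) → Prop} (hok : ∀ s, OK s (PN T z N φ u s))
    {h h' : κ × Fin 6 → Λ} (hh : h ∈ LC (Xl T z φ lt) u ∪ RC (Xl T z φ lt) u)
    (hh' : h' ∈ LC (Xl T z φ lt) u ∪ RC (Xl T z φ lt) u)
    (hs : ∀ s k ν, G.At s k → two k = some ν → Spl ν (K s.1 (h s)) (K s.1 (h' s))) :
    EvS3 D K C A G two OK (PN T z N φ u) h h' where
  toEvN3 := F.ev hA hh hh'
  co := fun s t hst => by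
    show nm N (T (pos z φ u s)) = nm N (T (pos z φ u t))
    rw [hG.co s t hst]
  ctr := fun s k hsk => by
    show nm N (T (pos z φ u s)) = C k
    rw [hG.ctr s k hsk, F.ctr]
  third := fun s t r hst hsr hth h1 h2 h3 =>
    F.third hh hh' hst hsr h1 h2 h3 (hG.th s t r hth).1 (hG.th s t r hth).2
  split := hs
  anti := fun k ν hk j l hl => by
    refine F.anti_nm (h2 k ν hk) ?_
    rcases hl with rfl | rfl
    · exact F.av_of hh (k, j + 3)
    · exact F.av_of hh' (k, j + 3)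
  ok := hok

/-- **The rules at any time, special times included**: a left and a right limit column. -/
theorem evS [Finite κ] [Finite Λ] {A : κ × Fin 6 → κ → Prop}
    (hA : ∀ s k, pos z φ u s = z k → A s k) {G : Geo κ} (hG : G.Ok z φ u)
    {two : κ → Option (Fin 6 → Fin 6)} (h2 : TwoC T z N two)
    {OK : κ × Fin 6 → Finset (Fin 6) → Prop} (hok : ∀ s, OK s (PN T z N φ u s))
    {h h' : κ × Fin 6 → Λ} (hh : h ∈ LC (Xl T z φ lt) u) (hh' : h' ∈ RC (Xl T z φ lt) u) :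
    EvS3 D K C A G two OK (PN T z N φ u) h h' :=
  F.evS_aux hA hG h2 hok (Or.inl hh) (Or.inr hh') fun s k ν hsk hk =>
    F.spl_col (by rw [hG.ctr s k hsk]; exact h2 k ν hk) hh hh'

/-- **The rules for any two limit columns** (no split). -/
theorem evO [Finite κ] [Finite Λ] {A : κ × Fin 6 → κ → Prop}
    (hA : ∀ s k, pos z φ u s = z k → A s k) {G : Geo κ} (hG : G.Ok z φ u)
    {two : κ → Option (Fin 6 → Fin 6)} (h2 : TwoC T z N two)
    {OK : κ × Fin 6 → Finset (Fin 6) → Prop} (hok : ∀ s, OK s (PN T z N φ u s))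
    {h h' : κ × Fin 6 → Λ} (hh : h ∈ LC (Xl T z φ lt) u ∪ RC (Xl T z φ lt) u)
    (hh' : h' ∈ LC (Xl T z φ lt) u ∪ RC (Xl T z φ lt) u) :
    EvS3 D K C A (Geo.gen G) two OK (PN T z N φ u) h h' :=
  F.evS_aux hA (G := Geo.gen G) ⟨hG.co, fun _ _ h => h.elim, hG.th⟩ h2 hok hh hh'
    fun _ _ _ h _ => h.elim

/-- **One turn by 60 degrees with a class function**: special times `0` and the times in `S`. -/
theorem turn_lab [Finite κ] [Finite Λ] {σ : Type*} (lab : (κ × Fin 6 → Λ) → σ) (S : Finset ℝ)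
    (hS : ∀ s ∈ S, s ∈ Ioo (0 : ℝ) 1) {E : ℝ → (κ × Fin 6 → Λ) → (κ × Fin 6 → Λ) → Prop}
    (hE : ∀ s ∈ S, ∀ h ∈ LC (Xl T z φ lt) s, ∀ h' ∈ RC (Xl T z φ lt) s, E s h h')
    (hlab : ∀ u ∈ Ioo (0 : ℝ) 1, u ∉ S → ∀ h ∈ LC (Xl T z φ lt) u ∪ RC (Xl T z φ lt) u,
      ∀ h' ∈ LC (Xl T z φ lt) u ∪ RC (Xl T z φ lt) u, lab h = lab h') :
    ∃ h ∈ LC (Xl T z φ lt) 0, ∃ h' ∈ RC (Xl T z φ lt) 0,
      Cmp (fun g g' => lab g = lab g') E (S.sort (· ≤ ·)) h' (h ∘ rt κ) := by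
  have w := F.fr.sw φ
  obtain ⟨h, hh⟩ := w.LC_ne 0
  obtain ⟨h', hh'⟩ := w.RC_ne 0
  refine ⟨h, hh, h', hh', ?_⟩
  have hper : ∀ i l u, u + 1 ∈ Xl T z φ lt i l ↔ u ∈ Xl T z φ lt (rt κ i) l :=
    fun i l u => Xl_per i l u
  refine w.turn_finset (R := fun g g' => lab g = lab g') (σ := rt κ) hper
    (fun _ _ _ h1 h2 => h1.trans h2) 0 S (fun s hs => ?_) (E := E) hE (fun u hu hS' => ?_) h hh
    h' hh'
  · rw [zero_add]; exact hS s hs
  · rw [zero_add] at hu
    exact fun g hg g' hg' => hlab u hu hS' g hg g' hg'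

/-- **No class function**: special time `0` only. -/
theorem false_of [Finite κ] [Finite Λ] {σ : Type*} (lab : (κ × Fin 6 → Λ) → σ)
    {A₀ A₁ : κ × Fin 6 → κ → Prop} {G₀ G₁ : Geo κ} (hA₀ : ∀ s k, pos z φ 0 s = z k → A₀ s k)
    (hG₀ : G₀.Ok z φ 0) (hA₁ : ∀ u ∈ Ioo (0 : ℝ) 1, ∀ s k, pos z φ u s = z k → A₁ s k)
    (hG₁ : ∀ u ∈ Ioo (0 : ℝ) 1, G₁.Ok z φ u) {two : κ → Option (Fin 6 → Fin 6)}
    (h2 : TwoC T z N two) {OK : κ × Fin 6 → Finset (Fin 6) → Prop}
    (hok : ∀ u s, OK s (PN T z N φ u s))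
    (gen : ∀ P h h', EvS3 D K C A₁ (Geo.gen G₁) two OK P h h' → lab h = lab h')
    (spc : ∀ P h h', EvS3 D K C A₀ G₀ two OK P h h' → lab h' ≠ lab (h ∘ rt κ)) : False := by
  obtain ⟨h, hh, h', hh', hC⟩ := F.turn_lab (φ := φ) lab ∅ (by simp)
    (E := fun _ _ _ => True) (by simp) fun u hu _ g hg g' hg' =>
      gen _ g g' (F.evO (hA₁ u hu) (hG₁ u hu) h2 (hok u) hg hg')
  rw [Finset.sort_empty] at hC
  exact spc _ h h' (F.evS hA₀ hG₀ h2 (hok 0) hh hh') hC

end FrN3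

/-! ### Families of circles -/

/-- one circle of a family, in names; at least three colours -/
structure Circ3 (U : Fin 6 → Set ℂ) (T : ℂ → Set (Fin 6)) (z : ℂ) (N : Fin 6 → Fin 6)
    (K : Λ → Finset (Fin 6)) (C : Finset (Fin 6)) (lt : Set (Fin 6) → Λ) : Prop where
  xx : z ∈ XX U
  three : 3 ≤ (T z).ncard
  isLt : ∀ l, IsLt T z (N '' (K l : Set (Fin 6)))
  sub : ∀ s, s ∈ Lc T z → N '' (K (lt (T (pt z s))) : Set (Fin 6)) ⊆ T (pt z s)
  ex : ∀ s, s ∈ Lc T z → N '' (K (lt (T (pt z s))) : Set (Fin 6)) ⊆ T z →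
    T (pt z s) = N '' (K (lt (T (pt z s))) : Set (Fin 6))
  ctr : C = nm N (T z)

theorem Circ3.of_circ (h : Irr U T) {z : ℂ} {K : Λ → Finset (Fin 6)} {C : Finset (Fin 6)}
    {lt : Set (Fin 6) → Λ} (c : Circ T z N K C lt) : Circ3 U T z N K C lt :=
  ⟨xx_of_four h c.four, (by norm_num : 3 ≤ 4).trans c.four, c.isLt, c.sub, c.ex, c.ctr⟩

/-- **a family of circles** -/
theorem frN3_of_circ (h : Irr U T) (hN : Function.Injective N)
    (hC : ∀ k, Circ3 U T (z k) N (K k) (C k) (lt k))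
    (hD : ∀ k k', D k k' → dist (z k) (z k') = 1) : FrN3 U T z N D K C lt where
  inj := hN
  fr :=
    { irr := h
      xx := fun k => (hC k).xx
      three := fun k => (hC k).three
      isLt := fun k l => (hC k).isLt l
      sub := fun k s hs => (hC k).sub s hs
      ex := fun k s hs => (hC k).ex s hs }
  ctr := fun k => (hC k).ctr
  dist := hD

/-- other names of the letters -/
theorem Circ3.map {Λ' : Type} {z : ℂ} {K : Λ → Finset (Fin 6)}
    {C : Finset (Fin 6)} {lt : Set (Fin 6) → Λ} (c : Circ3 U T z N K C lt) (e : Λ' → Λ)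
    (i : Λ → Λ') (hei : ∀ l, e (i l) = l) :
    Circ3 U T z N (fun l => K (e l)) C fun P => i (lt P) where
  xx := c.xx
  three := c.three
  isLt := fun l => c.isLt (e l)
  sub := fun s hs => by
    show N '' (K (e (i (lt (T (pt z s))))) : Set (Fin 6)) ⊆ _
    rw [hei]; exact c.sub s hs
  ex := fun s hs h1 => by
    have h1 : N '' (K (e (i (lt (T (pt z s))))) : Set (Fin 6)) ⊆ T z := h1
    show _ = N '' (K (e (i (lt (T (pt z s))))) : Set (Fin 6))
    rw [hei] at h1 ⊢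
    exact c.ex s hs h1
  ctr := c.ctr

/-- the colours of the three letters of a centre with the colours `ν 0, ν 1, ν 2` -/
def K3 (ν : Fin 6 → Fin 6) : Fin 3 → Finset (Fin 6) := ![{ν 3}, {ν 4}, {ν 5}]

open Classical in
/-- the letter of a palette of a centre with the colours `ν 0, ν 1, ν 2` -/
def lt3 (N ν : Fin 6 → Fin 6) (P : Set (Fin 6)) : Fin 3 :=
  if N (ν 3) ∈ P then 0 else if N (ν 4) ∈ P then 1 else 2

/-- **the circle of a centre with three colours** -/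
theorem circ3 (h : Irr U T) {z : ℂ} {N ν : Fin 6 → Fin 6} (hN : Function.Injective N)
    (hν : Function.Injective ν) (hz : z ∈ XX U) (hT : T z = {N (ν 0), N (ν 1), N (ν 2)}) :
    Circ3 U T z N (K3 ν) {ν 0, ν 1, ν 2} (lt3 N ν) := by
  have hsurj : Function.Surjective (N ∘ ν) :=
    Finite.injective_iff_surjective.1 (hN.comp hν)
  have h01 : N (ν 0) ≠ N (ν 1) := fun h5 => absurd (hν (hN h5)) (by decide)
  have h02 : N (ν 0) ≠ N (ν 2) := fun h5 => absurd (hν (hN h5)) (by decide)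
  have h12 : N (ν 1) ≠ N (ν 2) := fun h5 => absurd (hν (hN h5)) (by decide)
  have hcard : (T z).ncard = 3 := by
    rw [hT]; exact Set.ncard_eq_three.2 ⟨_, _, _, h01, h02, h12, rfl⟩
  have hout : ∀ i : Fin 6, 3 ≤ i → N (ν i) ∉ T z := by
    intro i hi hmem
    rw [hT] at hmem
    rcases hmem with h5 | h5 | h5
    · have := hν (hN h5); subst this; exact absurd hi (by decide)
    · have := hν (hN h5); subst this; exact absurd hi (by decide)
    · have := hν (hN h5); subst this; exact absurd hi (by decide)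
  have key : ∀ s : ℝ, N '' (K3 ν (lt3 N ν (T (pt z s))) : Set (Fin 6)) ⊆ T (pt z s) := by
    intro s
    unfold lt3
    split_ifs with h1 h2
    · show N '' (({ν 3} : Finset (Fin 6)) : Set (Fin 6)) ⊆ _
      simpa using h1
    · show N '' (({ν 4} : Finset (Fin 6)) : Set (Fin 6)) ⊆ _
      simpa using h2
    · show N '' (({ν 5} : Finset (Fin 6)) : Set (Fin 6)) ⊆ _
      obtain ⟨i, hi, hi'⟩ := out_three h (z := z) (by omega) s
      obtain ⟨m, hm⟩ := hsurj i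
      have hm : N (ν m) = i := hm
      subst hm
      have hm3 : ∀ m : Fin 6, m = 0 ∨ m = 1 ∨ m = 2 ∨ m = 3 ∨ m = 4 ∨ m = 5 := by decide
      rw [hT] at hi'
      rcases hm3 m with rfl | rfl | rfl | rfl | rfl | rfl
      · exact absurd (Or.inl rfl) hi'
      · exact absurd (Or.inr (Or.inl rfl)) hi'
      · exact absurd (Or.inr (Or.inr rfl)) hi'
      · exact absurd hi h1
      · exact absurd hi h2
      · simpa using hi
  have hone : ∀ l : Fin 3, ∃ i : Fin 6, 3 ≤ i ∧ K3 ν l = {ν i} := by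
    intro l
    fin_cases l
    · exact ⟨3, by decide, rfl⟩
    · exact ⟨4, by decide, rfl⟩
    · exact ⟨5, by decide, rfl⟩
  refine ⟨hz, hcard.ge, fun l => ?_, fun s _ => key s, fun s _ h5 => ?_, ?_⟩
  · left
    obtain ⟨i, hi, hK⟩ := hone l
    refine ⟨N (ν i), hout i hi, ?_⟩
    rw [hK]; simp
  · exfalso
    obtain ⟨i, hi, hK⟩ := hone (lt3 N ν (T (pt z s)))
    rw [hK] at h5
    refine hout i hi (h5 ?_)
    simp
  · rw [hT]
    ext i
    rw [mem_nm]
    simp only [Finset.mem_insert, Finset.mem_singleton, Set.mem_insert_iff,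
      Set.mem_singleton_iff]
    constructor
    · rintro (rfl | rfl | rfl) <;> simp
    · rintro (h1 | h1 | h1)
      · exact Or.inl (hN h1)
      · exact Or.inr (Or.inl (hN h1))
      · exact Or.inr (Or.inr (hN h1))

end Vale.Agent.P032.H423
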