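import Vale.Agent.P032.H423.Fr3N

/-!
# P032: families of circles with centres in the triangular lattice

Centres `z k = z₀ + lat φ (v k)`, `v k : ℤ × ℤ`.

* `lat0 v` : the data `Geo` (747) at the time `0` (equal points, slots at centres, third colour),
  decidable; `lat0_ok`, `lat0_at` (complete);
* `latG v` : the data at the times in `(0, 1)`; `latG_ok`, `latG_at`;
* `FrN3.lat_false` : no class function, for lattice families.
-/

open Set Filter Topology Metric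

noncomputable section

namespace Vale.Agent.P032.H423

open Vale.Agent.P032.Six Vale.Agent.P032.Sweep Vale.Agent.P032.S5.H767 Vale.Agent.P032.S5.H122
  Vale.Agent.P032.H187 Vale.Agent.P032.H93 Vale.Agent.P032.H780 Vale.Agent.P032.H747

/-- the six unit vectors -/
def e6 : Fin 6 → ℤ × ℤ := ![(1, 0), (0, 1), (-1, 1), (-1, 0), (0, -1), (1, -1)]

/-- the norm of the lattice -/
def Nm (x : ℤ × ℤ) : ℤ := x.1 * x.1 + x.1 * x.2 + x.2 * x.2

/-- the product of the lattice -/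
def em (x y : ℤ × ℤ) : ℤ × ℤ := (x.1 * y.1 - x.2 * y.2, x.1 * y.2 + x.2 * y.1 + x.2 * y.2)

/-- the lattice point -/
def lat (φ : ℝ) (x : ℤ × ℤ) : ℂ := cis (φ * (Real.pi / 3)) * (x.1 + x.2 * cis (Real.pi / 3))

theorem cis_sixty : cis (Real.pi / 3) * cis (Real.pi / 3) = cis (Real.pi / 3) - 1 := by
  have h1 : cis (Real.pi / 3) = (1 / 2 : ℝ) + (Real.sqrt 3 / 2 : ℝ) * Complex.I := by
    apply Complex.ext
    · simp [cis_re, Real.cos_pi_div_three]
    · simp [cis_im, Real.sin_pi_div_three]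
  have h3 : ((Real.sqrt 3 : ℝ) : ℂ) * ((Real.sqrt 3 : ℝ) : ℂ) = 3 := by
    rw [← Complex.ofReal_mul, Real.mul_self_sqrt (by norm_num)]; norm_num
  rw [h1]
  push_cast
  linear_combination (Complex.I * Complex.I / 4) * h3 + (3 / 4 : ℂ) * Complex.I_mul_I

theorem lat_add (φ : ℝ) (x y : ℤ × ℤ) : lat φ (x + y) = lat φ x + lat φ y := by
  simp only [lat, Prod.fst_add, Prod.snd_add]; push_cast; ring

theorem lat_sub (φ : ℝ) (x y : ℤ × ℤ) : lat φ (x - y) = lat φ x - lat φ y := by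
  simp only [lat, Prod.fst_sub, Prod.snd_sub]; push_cast; ring

theorem lat_em (φ : ℝ) (x y : ℤ × ℤ) : lat φ (em x y) = lat φ x * lat 0 y := by
  simp only [lat, em]
  have h0 : cis (0 * (Real.pi / 3)) = 1 := by rw [zero_mul]; exact cis_zero
  rw [h0]
  push_cast
  linear_combination (-(cis (φ * (Real.pi / 3)) * (x.2 : ℂ) * (y.2 : ℂ))) * cis_sixty

/-- the square of the norm -/
theorem norm_lat (φ : ℝ) (x : ℤ × ℤ) : ‖lat φ x‖ ^ 2 = (Nm x : ℝ) := by
  have h1 : ‖cis (φ * (Real.pi / 3))‖ = 1 := norm_cis _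
  rw [lat, norm_mul, h1, one_mul, ← Complex.normSq_eq_norm_sq, Complex.normSq_apply]
  have h2 : ((x.1 : ℂ) + x.2 * cis (Real.pi / 3)).re = x.1 + x.2 / 2 := by
    simp [cis_re, Real.cos_pi_div_three]; ring
  have h3 : ((x.1 : ℂ) + x.2 * cis (Real.pi / 3)).im = x.2 * (Real.sqrt 3 / 2) := by
    simp [cis_im, Real.sin_pi_div_three]
  rw [h2, h3]
  have h4 : Real.sqrt 3 * Real.sqrt 3 = 3 := Real.mul_self_sqrt (by norm_num)
  simp only [Nm]
  push_cast
  linear_combination ((x.2 : ℝ) * x.2 / 4) * h4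

theorem Nm_zero {x : ℤ × ℤ} (h : Nm x = 0) : x = 0 := by
  obtain ⟨a, b⟩ := x
  have h1 : a * a + a * b + b * b = 0 := h
  have h2 : (2 * a + b) * (2 * a + b) + 3 * (b * b) = 0 := by linear_combination 4 * h1
  have h3 : b * b = 0 := by nlinarith [mul_self_nonneg (2 * a + b), mul_self_nonneg b]
  have h4 : b = 0 := mul_self_eq_zero.1 h3
  subst h4
  have h5 : a * a = 0 := by linear_combination h1
  have h6 : a = 0 := mul_self_eq_zero.1 h5
  subst h6
  rfl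

theorem lat_zero {φ : ℝ} {x : ℤ × ℤ} (h : lat φ x = 0) : x = 0 := by
  have h1 := norm_lat φ x
  rw [h, norm_zero] at h1
  refine Nm_zero ?_
  have h2 : (Nm x : ℝ) = 0 := by rw [← h1]; norm_num
  exact_mod_cast h2

theorem lat_inj {φ : ℝ} {x y : ℤ × ℤ} (h : lat φ x = lat φ y) : x = y := by
  have h1 : lat φ (x - y) = 0 := by rw [lat_sub, h, sub_self]
  exact sub_eq_zero.1 (lat_zero h1)

theorem pt_lat (z : ℂ) (s : ℝ) : pt z s = z + lat s (1, 0) := by
  simp [pt, lat]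

/-- the unit vectors -/
theorem lat_e6 (s : ℝ) (j : Fin 6) : lat s (e6 j) = cis ((s + (j.val : ℝ)) * (Real.pi / 3)) := by
  have h1 : ∀ x : ℝ, cis ((x + 1) * (Real.pi / 3)) = cis (x * (Real.pi / 3)) * cis (Real.pi / 3) := by
    intro x
    rw [show (x + 1) * (Real.pi / 3) = x * (Real.pi / 3) + Real.pi / 3 by ring, Six.cis_add]
  have e2 := h1 s
  have e3 := h1 (s + 1)
  have e4 := h1 (s + 2)
  have e5 := h1 (s + 3)
  have e6' := h1 (s + 4)
  rw [show s + 1 + 1 = s + 2 by ring] at e3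
  rw [show s + 2 + 1 = s + 3 by ring] at e4
  rw [show s + 3 + 1 = s + 4 by ring] at e5
  rw [show s + 4 + 1 = s + 5 by ring] at e6'
  have hq := cis_sixty
  fin_cases j
  · simp [lat, e6]
  · simp only [lat, e6]
    simp [e2]
  · simp only [lat, e6]
    simp [e3, e2]
    linear_combination (-cis (s * (Real.pi / 3))) * hq
  · simp only [lat, e6]
    simp [e4, e3, e2]
    linear_combination (-cis (s * (Real.pi / 3)) * (1 + cis (Real.pi / 3))) * hq
  · simp only [lat, e6]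
    simp [e5, e4, e3, e2]
    linear_combination (-cis (s * (Real.pi / 3)) * (cis (Real.pi / 3) * cis (Real.pi / 3) +
      cis (Real.pi / 3))) * hq
  · simp only [lat, e6]
    simp [e6', e5, e4, e3, e2]
    linear_combination (-cis (s * (Real.pi / 3)) * (cis (Real.pi / 3) * cis (Real.pi / 3) *
      cis (Real.pi / 3) + cis (Real.pi / 3) * cis (Real.pi / 3) - 1)) * hq

/-- the factor of the vectors of norm 1, 3, 4 -/
def c0 (n : ℤ) : ℤ × ℤ := if n = 1 then (1, 0) else if n = 3 then (1, 1) else (2, 0)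

theorem unit_of {x : ℤ × ℤ} (h : Nm x = 1 ∨ Nm x = 3 ∨ Nm x = 4) :
    ∃ i : Fin 6, x = em (e6 i) (c0 (Nm x)) := by
  have h4 : Nm x ≤ 4 := by rcases h with h | h | h <;> rw [h] <;> norm_num
  have ha : x.1 ∈ Finset.Icc (-2 : ℤ) 2 := by
    have h5 : x.1 * x.1 + x.1 * x.2 + x.2 * x.2 ≤ 4 := h4
    rw [Finset.mem_Icc]
    constructor <;> nlinarith [mul_self_nonneg (x.1 + 2 * x.2)]
  have hb : x.2 ∈ Finset.Icc (-2 : ℤ) 2 := by
    have h5 : x.1 * x.1 + x.1 * x.2 + x.2 * x.2 ≤ 4 := h4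
    rw [Finset.mem_Icc]
    constructor <;> nlinarith [mul_self_nonneg (2 * x.1 + x.2)]
  have key : ∀ a ∈ Finset.Icc (-2 : ℤ) 2, ∀ b ∈ Finset.Icc (-2 : ℤ) 2,
      (Nm (a, b) = 1 ∨ Nm (a, b) = 3 ∨ Nm (a, b) = 4) →
      ∃ i : Fin 6, (a, b) = em (e6 i) (c0 (Nm (a, b))) := by decide
  exact key x.1 ha x.2 hb h

theorem c0_ne (n : ℤ) : c0 n ≠ 0 := by
  unfold c0
  split_ifs <;> decide

/-- two vectors which cannot be opposite after a turn by less than 60 degrees -/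
def nz (x y : ℤ × ℤ) : Prop := Nm x ≠ Nm y ∨ Nm x = 1 ∨ Nm x = 3 ∨ Nm x = 4

instance (x y : ℤ × ℤ) : Decidable (nz x y) := by unfold nz; infer_instance

theorem nz_ne {φ u : ℝ} (hu : u ∈ Ioo (0 : ℝ) 1) {x y : ℤ × ℤ} (h : nz x y) :
    lat φ x + lat (φ + u) y ≠ 0 := by
  intro h0
  have h1 : lat φ x = -lat (φ + u) y := eq_neg_of_add_eq_zero_left h0
  have h2 : Nm x = Nm y := by
    have h3 := norm_lat φ x
    rw [h1, norm_neg, norm_lat] at h3
    exact_mod_cast h3.symm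
  have hx : Nm x = 1 ∨ Nm x = 3 ∨ Nm x = 4 := h.resolve_left fun h3 => h3 h2
  obtain ⟨i, hi⟩ := unit_of hx
  obtain ⟨j, hj⟩ := unit_of (x := y) (by rw [← h2]; exact hx)
  rw [← h2] at hj
  have h3 : (lat φ (e6 i) + lat (φ + u) (e6 j)) * lat 0 (c0 (Nm x)) = 0 := by
    rw [add_mul, ← lat_em, ← lat_em, ← hi, ← hj]; exact h0
  have h4 : lat φ (e6 i) + lat (φ + u) (e6 j) = 0 :=
    (mul_eq_zero.1 h3).resolve_right fun h5 => c0_ne _ (lat_zero h5)
  rw [lat_e6, lat_e6] at h4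
  have h5 : cis ((φ + u + (j.val : ℝ) + 3) * (Real.pi / 3)) =
      -cis ((φ + u + (j.val : ℝ)) * (Real.pi / 3)) := by
    rw [show (φ + u + (j.val : ℝ) + 3) * (Real.pi / 3) =
      (φ + u + (j.val : ℝ)) * (Real.pi / 3) + Real.pi by ring, Six.cis_add]
    have : cis Real.pi = -1 := by
      apply Complex.ext
      · simp [cis_re]
      · simp [cis_im]
    rw [this]; ring
  have h6 : pt 0 (φ + (i.val : ℝ)) = pt 0 (φ + u + (j.val : ℝ) + 3) := by
    unfold pt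
    rw [h5]
    linear_combination h4
  obtain ⟨n, hn⟩ := pt_eq_iff h6
  have h7 : u = (i.val : ℝ) - (j.val : ℝ) - 3 - 6 * (n : ℝ) := by linarith
  have h8 : (0 : ℝ) < (((i.val : ℤ) - (j.val : ℤ) - 3 - 6 * n : ℤ) : ℝ) := by
    push_cast; rw [← h7]; exact hu.1
  have h9 : (((i.val : ℤ) - (j.val : ℤ) - 3 - 6 * n : ℤ) : ℝ) < 1 := by
    push_cast; rw [← h7]; exact hu.2
  have h10 : (0 : ℤ) < (i.val : ℤ) - (j.val : ℤ) - 3 - 6 * n := by exact_mod_cast h8
  have h11 : (i.val : ℤ) - (j.val : ℤ) - 3 - 6 * n < 1 := by exact_mod_cast h9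
  omega

/-! ### The data of lattice families -/

variable {κ : Type} {z : κ → ℂ} {v : κ → ℤ × ℤ} {z₀ : ℂ} {φ u : ℝ}

/-- the centres are lattice points -/
def IsLat (z : κ → ℂ) (v : κ → ℤ × ℤ) (z₀ : ℂ) (φ : ℝ) : Prop := ∀ k, z k = z₀ + lat φ (v k)

theorem IsLat.pos (h : IsLat z v z₀ φ) (u : ℝ) (s : κ × Fin 6) :
    pos z φ u s = z₀ + (lat φ (v s.1) + lat (φ + u) (e6 s.2)) := by
  rw [lat_e6, ← add_assoc, ← h s.1]
  rfl

/-- adjacent centres -/
theorem IsLat.dist (h : IsLat z v z₀ φ) {k k' : κ} (hk : Nm (v k - v k') = 1) :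
    dist (z k) (z k') = 1 := by
  rw [h k, h k', dist_eq_norm, add_sub_add_left_eq_sub, ← lat_sub]
  have h1 := norm_lat φ (v k - v k')
  rw [hk] at h1
  have h2 : (0 : ℝ) ≤ ‖lat φ (v k - v k')‖ := norm_nonneg _
  have h3 : (‖lat φ (v k - v k')‖ - 1) * (‖lat φ (v k - v k')‖ + 1) = 0 := by
    have : ((1 : ℤ) : ℝ) = 1 := by norm_num
    rw [this] at h1
    linear_combination h1
  rcases mul_eq_zero.1 h3 with h4 | h4 <;> linarith

/-- the data at the time `0` -/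
def lat0 (v : κ → ℤ × ℤ) : Geo κ where
  Co s t := v s.1 + e6 s.2 = v t.1 + e6 t.2
  At s k := v s.1 + e6 s.2 = v k
  Th s t r := v r.1 + e6 r.2 ≠ v t.1 + e6 t.2 ∧
    v r.1 + e6 r.2 + (v t.1 + e6 t.2) ≠ (v s.1 + e6 s.2) + (v s.1 + e6 s.2)

/-- the data at the times in `(0, 1)` -/
def latG (v : κ → ℤ × ℤ) : Geo κ where
  Co _ _ := False
  At _ _ := False
  Th s t r := nz (v r.1 - v t.1) (e6 r.2 - e6 t.2) ∧
    nz (v r.1 + v t.1 - (v s.1 + v s.1)) (e6 r.2 + e6 t.2 - (e6 s.2 + e6 s.2))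

instance (v : κ → ℤ × ℤ) (s t : κ × Fin 6) : Decidable ((lat0 v).Co s t) := by
  unfold lat0; infer_instance

instance (v : κ → ℤ × ℤ) (s : κ × Fin 6) (k : κ) : Decidable ((lat0 v).At s k) := by
  unfold lat0; infer_instance

instance (v : κ → ℤ × ℤ) (s t r : κ × Fin 6) : Decidable ((lat0 v).Th s t r) := by
  unfold lat0; infer_instance

instance (v : κ → ℤ × ℤ) (s t r : κ × Fin 6) : Decidable ((latG v).Th s t r) := by
  unfold latG; infer_instance

theorem IsLat.pos0 (h : IsLat z v z₀ φ) (s : κ × Fin 6) :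
    H93.pos z φ 0 s = z₀ + lat φ (v s.1 + e6 s.2) := by
  rw [h.pos, add_zero, lat_add]

theorem lat0_ok (h : IsLat z v z₀ φ) : (lat0 v).Ok z φ 0 where
  co s t hst := by
    have hst : v s.1 + e6 s.2 = v t.1 + e6 t.2 := hst
    rw [h.pos0, h.pos0, hst]
  ctr s k hsk := by
    have hsk : v s.1 + e6 s.2 = v k := hsk
    rw [h.pos0, hsk, ← h k]
  th s t r hth := by
    have hth : v r.1 + e6 r.2 ≠ v t.1 + e6 t.2 ∧
      v r.1 + e6 r.2 + (v t.1 + e6 t.2) ≠ (v s.1 + e6 s.2) + (v s.1 + e6 s.2) := hth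
    rw [h.pos0, h.pos0, h.pos0]
    refine ⟨fun h1 => hth.1 (lat_inj (add_left_cancel h1)), fun h1 => hth.2 (lat_inj (φ := φ) ?_)⟩
    rw [lat_add, lat_add φ (v s.1 + e6 s.2)]
    linear_combination h1

theorem lat0_at (h : IsLat z v z₀ φ) (s : κ × Fin 6) (k : κ) (hs : H93.pos z φ 0 s = z k) :
    (lat0 v).At s k := by
  rw [h.pos0, h k] at hs
  exact lat_inj (add_left_cancel hs)

theorem latG_ok (h : IsLat z v z₀ φ) (hu : u ∈ Ioo (0 : ℝ) 1) : (latG v).Ok z φ u where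
  co _ _ hst := hst.elim
  ctr _ _ hsk := hsk.elim
  th s t r hth := by
    have hth : nz (v r.1 - v t.1) (e6 r.2 - e6 t.2) ∧
      nz (v r.1 + v t.1 - (v s.1 + v s.1)) (e6 r.2 + e6 t.2 - (e6 s.2 + e6 s.2)) := hth
    rw [h.pos, h.pos, h.pos]
    refine ⟨fun h1 => nz_ne (φ := φ) hu hth.1 ?_, fun h1 => nz_ne (φ := φ) hu hth.2 ?_⟩
    · rw [lat_sub, lat_sub]; linear_combination h1
    · rw [lat_sub, lat_sub, lat_add, lat_add, lat_add, lat_add]; linear_combination h1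

theorem latG_at (h : IsLat z v z₀ φ) (hu : u ∈ Ioo (0 : ℝ) 1) (s : κ × Fin 6) (k : κ) :
    H93.pos z φ u s ≠ z k := by
  intro h1
  rw [h.pos, h k] at h1
  have hn : nz (v s.1 - v k) (e6 s.2) := by
    have h2 : ∀ j : Fin 6, Nm (e6 j) = 1 := by decide
    by_cases h3 : Nm (v s.1 - v k) = 1
    · exact Or.inr (Or.inl h3)
    · left; rw [h2]; exact h3
  refine nz_ne (φ := φ) hu hn ?_
  rw [lat_sub]; linear_combination h1

/-- **No class function, lattice families**: `gen` the rules at the times in `(0, 1)`, `spc` at the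
time `0`. -/
theorem FrN3.lat_false {Λ σ : Type} {U : Fin 6 → Set ℂ} {T : ℂ → Set (Fin 6)}
    {N : Fin 6 → Fin 6} {D : κ → κ → Prop} {K : κ → Λ → Finset (Fin 6)}
    {C : κ → Finset (Fin 6)} {lt : κ → Set (Fin 6) → Λ} [Finite κ] [Finite Λ]
    (F : FrN3 U T z N D K C lt) (hz : IsLat z v z₀ φ) (lab : (κ × Fin 6 → Λ) → σ)
    {two : κ → Option (Fin 6 → Fin 6)}
    (h2 : TwoC T z N two) {OK : κ × Fin 6 → Finset (Fin 6) → Prop}
    (hok : ∀ u s, OK s (PN T z N φ u s))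
    (gen : ∀ P h h', EvS3 D K C (fun _ _ => False) (latG v) two OK P h h' → lab h = lab h')
    (spc : ∀ P h h', EvS3 D K C (lat0 v).At (lat0 v) two OK P h h' → lab h' ≠ lab (h ∘ rt κ)) :
    False :=
  F.false_of (φ := φ) lab (lat0_at hz) (lat0_ok hz)
    (fun _ hu s k h1 => latG_at hz hu s k h1) (fun _ hu => latG_ok hz hu) h2 hok gen spc

end Vale.Agent.P032.H423
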